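import Vale.Agent.P133.R2.H28.Iter

/-!
P133 (helper328): the block estimate in a unital C*-algebra.
-/

open scoped ComplexOrder

namespace Vale.Agent.P133.R2.H328

universe u

theorem pow_norm {W : Type u} [CStarAlgebra W] {y : W} (hy : star y = y) (k : ℕ) :
    ‖y ^ 2 ^ k‖ = ‖y‖ ^ 2 ^ k := by
  induction k with
  | zero => simp
  | succ k ih =>
    have h1 : y ^ 2 ^ (k + 1) = star (y ^ 2 ^ k) * y ^ 2 ^ k := by
      rw [star_pow, hy, ← pow_add]
      congr 1
      ring
    rw [h1, CStarRing.norm_star_mul_self, ih, ← pow_add]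
    congr 1
    ring

theorem norm_sum_orthU {W : Type u} [CStarAlgebra W] {ι : Type} [DecidableEq ι]
    (s : Finset ι) (e : ι → W) {C : ℝ} (hC : 0 ≤ C) (h : ∀ i ∈ s, ‖e i‖ ≤ C)
    (h1 : ∀ i ∈ s, ∀ j ∈ s, i ≠ j → star (e i) * e j = 0)
    (h2 : ∀ i ∈ s, ∀ j ∈ s, i ≠ j → e i * star (e j) = 0) : ‖∑ i ∈ s, e i‖ ≤ C := by
  classical
  set x : W := ∑ i ∈ s, e i with hx
  set a : ι → W := fun i => star (e i) * e i with ha
  have hxx : star x * x = ∑ i ∈ s, a i := by
    rw [hx, star_sum, Finset.sum_mul_sum]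
    refine Finset.sum_congr rfl fun i hi => ?_
    rw [Finset.sum_eq_single i]
    · intro j hj hji
      exact h1 i hi j hj (Ne.symm hji)
    · intro hni
      exact absurd hi hni
  have haa : ∀ i ∈ s, ∀ j ∈ s, i ≠ j → a i * a j = 0 := by
    intro i hi j hj hij
    have := h2 i hi j hj hij
    simp only [ha]
    calc star (e i) * e i * (star (e j) * e j) = star (e i) * (e i * star (e j)) * e j := by
          simp only [mul_assoc]
      _ = 0 := by rw [this, mul_zero, zero_mul]
  have hpow : ∀ m : ℕ, (∑ i ∈ s, a i) ^ (m + 1) = ∑ i ∈ s, a i ^ (m + 1) := by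
    intro m
    induction m with
    | zero => simp
    | succ m ih =>
      rw [pow_succ, ih, Finset.sum_mul_sum]
      refine Finset.sum_congr rfl fun i hi => ?_
      rw [Finset.sum_eq_single i]
      · rw [pow_succ (a i) (m + 1)]
      · intro j hj hji
        rw [pow_succ, mul_assoc, haa i hi j hj (Ne.symm hji), mul_zero]
      · intro hni
        exact absurd hi hni
  have hbd : ∀ k : ℕ, (‖x‖ ^ 2) ^ 2 ^ k ≤ s.card * (C ^ 2) ^ 2 ^ k := by
    intro k
    have e1 : ‖(star x * x) ^ 2 ^ k‖ = (‖x‖ ^ 2) ^ 2 ^ k := by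
      rw [pow_norm (by simp), CStarRing.norm_star_mul_self, ← sq]
    rw [← e1, hxx]
    obtain ⟨m, hm⟩ : ∃ m, 2 ^ k = m + 1 :=
      ⟨2 ^ k - 1, (Nat.sub_add_cancel Nat.one_le_two_pow).symm⟩
    rw [hm, hpow m]
    refine (norm_sum_le _ _).trans ?_
    rw [← nsmul_eq_mul]
    refine Finset.sum_le_card_nsmul _ _ _ fun i hi => ?_
    have e2 : ‖a i ^ (m + 1)‖ = (‖e i‖ ^ 2) ^ (m + 1) := by
      rw [← hm, pow_norm (by simp [ha]), ha]
      simp only
      rw [CStarRing.norm_star_mul_self, ← sq]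
    rw [e2]
    exact pow_le_pow_left₀ (by positivity) (pow_le_pow_left₀ (norm_nonneg _) (h i hi) 2) _
  by_contra hlt
  rw [not_le] at hlt
  rcases hC.eq_or_lt with h0 | h0
  · have := hbd 0
    rw [← h0] at this
    have hx0 : 0 < ‖x‖ := by rw [← h0] at hlt; exact hlt
    have h3 : 0 < ‖x‖ ^ 2 := by positivity
    have h4 : ‖x‖ ^ 2 ≤ 0 := by
      refine this.trans' ?_ |>.trans (le_of_eq ?_)
      · simp
      · simp
    linarith
  · have hr : 1 < ‖x‖ ^ 2 / C ^ 2 := by
      rw [one_lt_div (by positivity)]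
      exact pow_lt_pow_left₀ hlt hC (by norm_num)
    obtain ⟨N, hN⟩ := pow_unbounded_of_one_lt (s.card : ℝ) hr
    have hN' : (s.card : ℝ) < (‖x‖ ^ 2 / C ^ 2) ^ 2 ^ N :=
      hN.trans_le (pow_le_pow_right₀ hr.le Nat.lt_two_pow_self.le)
    have := hbd N
    rw [div_pow, lt_div_iff₀ (by positivity)] at hN'
    linarith

/-- elements killed by `q` kill the closure of `q W q` -/
theorem mul_clo {W : Type u} [CStarAlgebra W] {q a x : W} (h : a * q = 0)
    (hx : x ∈ closure (Set.range fun z => q * z * q)) : a * x = 0 := by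
  have hcl : IsClosed {z : W | a * z = 0} := isClosed_eq (by fun_prop) continuous_const
  refine closure_minimal (s := Set.range fun z => q * z * q) ?_ hcl hx
  rintro _ ⟨z, rfl⟩
  change a * (q * z * q) = 0
  rw [← mul_assoc, ← mul_assoc, h, zero_mul, zero_mul]

theorem clo_mul {W : Type u} [CStarAlgebra W] {q a x : W} (h : q * a = 0)
    (hx : x ∈ closure (Set.range fun z => q * z * q)) : x * a = 0 := by
  have hcl : IsClosed {z : W | z * a = 0} := isClosed_eq (by fun_prop) continuous_const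
  refine closure_minimal (s := Set.range fun z => q * z * q) ?_ hcl hx
  rintro _ ⟨z, rfl⟩
  change q * z * q * a = 0
  rw [mul_assoc, h, mul_zero]

section

variable {W : Type u} [CStarAlgebra W] {v q : ℕ → W}

theorem vv_symm (hv : ∀ k, star (v k) = v k) (hvv : ∀ k l, k < l → v k * v l = v k) {k l : ℕ}
    (h : k < l) : v l * v k = v k := by
  have := congrArg star (hvv k l h)
  rwa [star_mul, hv, hv] at this

theorem q_star (hv : ∀ k, star (v k) = v k) (hq0 : q 0 = v 0)
    (hq : ∀ i, q (i + 1) = v (i + 1) - v i) (i : ℕ) : star (q i) = q i := by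
  cases i with
  | zero => rw [hq0, hv]
  | succ i => rw [hq, star_sub, hv, hv]

theorem q_norm (hv1 : ∀ k, ‖v k‖ ≤ 1) (hq0 : q 0 = v 0)
    (hq : ∀ i, q (i + 1) = v (i + 1) - v i) (i : ℕ) : ‖q i‖ ≤ 2 := by
  cases i with
  | zero => rw [hq0]; linarith [hv1 0]
  | succ i =>
    rw [hq]
    linarith [norm_sub_le (v (i + 1)) (v i), hv1 (i + 1), hv1 i]

/-- `q i v k = q i` for `k > i` -/
theorem q_v (hvv : ∀ k l, k < l → v k * v l = v k) (hq0 : q 0 = v 0)
    (hq : ∀ i, q (i + 1) = v (i + 1) - v i) {i k : ℕ} (h : i < k) : q i * v k = q i := by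
  cases i with
  | zero => rw [hq0, hvv 0 k h]
  | succ i => rw [hq, sub_mul, hvv (i + 1) k h, hvv i k (by omega)]

/-- `v k q j = 0` for `j ≥ k + 2` -/
theorem v_q (hvv : ∀ k l, k < l → v k * v l = v k)
    (hq : ∀ i, q (i + 1) = v (i + 1) - v i) {k j : ℕ} (h : k + 2 ≤ j) : v k * q j = 0 := by
  obtain ⟨i, rfl⟩ : ∃ i, j = i + 1 := ⟨j - 1, by omega⟩
  rw [hq, mul_sub, hvv k (i + 1) (by omega), hvv k i (by omega), sub_self]

theorem q_q_lt (hvv : ∀ k l, k < l → v k * v l = v k) (hq0 : q 0 = v 0)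
    (hq : ∀ i, q (i + 1) = v (i + 1) - v i) {i j : ℕ} (h : i + 3 ≤ j) : q i * q j = 0 := by
  have h1 : q i = q i * v (i + 1) := (q_v hvv hq0 hq (by omega)).symm
  rw [h1, mul_assoc, v_q hvv hq (by omega), mul_zero]

theorem q_q (hv : ∀ k, star (v k) = v k) (hvv : ∀ k l, k < l → v k * v l = v k) (hq0 : q 0 = v 0)
    (hq : ∀ i, q (i + 1) = v (i + 1) - v i) {i j : ℕ} (h : i ≠ j) (hm : i % 4 = j % 4) :
    q i * q j = 0 := by
  rcases lt_or_gt_of_ne h with h | h
  · exact q_q_lt hvv hq0 hq (by omega)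
  · have := congrArg star (q_q_lt hvv hq0 hq (i := j) (j := i) (by omega))
    rwa [star_mul, q_star hv hq0 hq, q_star hv hq0 hq, star_zero] at this

end

/-- splitting a double sum into the diagonal and the two halves -/
theorem sum_split {W : Type u} [AddCommGroup W] (S : Finset ℕ) (f : ℕ → ℕ → W) :
    ∑ i ∈ S, ∑ i' ∈ S, f i i' = ∑ i ∈ S, f i i + ∑ i ∈ S, ∑ i' ∈ S.filter (fun i' => i < i'), f i i' +
      ∑ i' ∈ S, ∑ i ∈ S.filter (fun i => i' < i), f i i' := by
  have h1 : ∀ i i', f i i' = (if i = i' then f i i' else 0) + (if i < i' then f i i' else 0) +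
      (if i' < i then f i i' else 0) := by
    intro i i'
    rcases lt_trichotomy i i' with h | h | h
    · simp [h, h.ne, h.not_gt]
    · simp [h]
    · simp [h, h.ne', h.not_gt]
  have h2 : ∑ i ∈ S, ∑ i' ∈ S, (if i = i' then f i i' else 0) = ∑ i ∈ S, f i i := by
    refine Finset.sum_congr rfl fun i hi => ?_
    rw [Finset.sum_ite_eq, if_pos hi]
  have h3 : ∑ i ∈ S, ∑ i' ∈ S, (if i < i' then f i i' else 0) =
      ∑ i ∈ S, ∑ i' ∈ S.filter (fun i' => i < i'), f i i' :=
    Finset.sum_congr rfl fun i _ => (Finset.sum_filter _ _).symm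
  have h4 : ∑ i ∈ S, ∑ i' ∈ S, (if i' < i then f i i' else 0) =
      ∑ i' ∈ S, ∑ i ∈ S.filter (fun i => i' < i), f i i' := by
    rw [Finset.sum_comm]
    exact Finset.sum_congr rfl fun i _ => (Finset.sum_filter _ _).symm
  rw [← h2, ← h3, ← h4, ← Finset.sum_add_distrib, ← Finset.sum_add_distrib]
  refine Finset.sum_congr rfl fun i _ => ?_
  rw [← Finset.sum_add_distrib, ← Finset.sum_add_distrib]
  exact Finset.sum_congr rfl fun i' _ => h1 i i'

theorem half_bound {W : Type u} [CStarAlgebra W] {T : W} {v : ℕ → W} {η : ℝ} (hη : 0 ≤ η)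
    (hvT : ∀ i, ‖v i * T * (1 - v (i + 1))‖ ≤ η / 2 ^ i) {K : ℕ} {S : Finset ℕ}
    (hS : S ⊆ Finset.range K) (p R : ℕ → W) {D : ℝ} (hD : 0 ≤ D) (hp : ∀ i ∈ S, ‖p i‖ ≤ D)
    (hR : ∀ i ∈ S, ‖R i‖ ≤ D) (hpv : ∀ i ∈ S, star (p i) * v (i + 1) = star (p i))
    (hRv : ∀ i ∈ S, v (i + 2) * R i = 0) : ‖∑ i ∈ S, star (p i) * T * R i‖ ≤ D * D * η := by
  have h1 : ∀ i ∈ S, ‖star (p i) * T * R i‖ ≤ D * D * η * (1 / 2) * (1 / 2) ^ i := by
    intro i hi
    have e1 : star (p i) * T * R i =
        star (p i) * (v (i + 1) * T * (1 - v (i + 1 + 1))) * R i := by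
      have a1 : star (p i) * (v (i + 1) * T * (1 - v (i + 1 + 1))) * R i =
          star (p i) * v (i + 1) * T * (R i - v (i + 2) * R i) := by noncomm_ring
      rw [a1, hpv i hi, hRv i hi, sub_zero]
    rw [e1]
    calc ‖star (p i) * (v (i + 1) * T * (1 - v (i + 1 + 1))) * R i‖
        ≤ ‖star (p i)‖ * ‖v (i + 1) * T * (1 - v (i + 1 + 1))‖ * ‖R i‖ :=
          (norm_mul_le _ _).trans (mul_le_mul_of_nonneg_right (norm_mul_le _ _) (norm_nonneg _))
      _ ≤ D * (η / 2 ^ (i + 1)) * D := by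
          have b1 : ‖star (p i)‖ ≤ D := by rw [norm_star]; exact hp i hi
          have b2 := hvT (i + 1)
          have b3 := hR i hi
          have b4 : 0 ≤ η / 2 ^ (i + 1) := by positivity
          exact mul_le_mul (mul_le_mul b1 b2 (norm_nonneg _) hD) b3 (norm_nonneg _)
            (mul_nonneg hD b4)
      _ = D * D * η * (1 / 2) * (1 / 2) ^ i := by
          rw [one_div_pow, pow_succ]
          field_simp
  have hpos : 0 ≤ D * D * η * (1 / 2) := by positivity
  calc ‖∑ i ∈ S, star (p i) * T * R i‖ ≤ ∑ i ∈ S, D * D * η * (1 / 2) * (1 / 2) ^ i :=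
        norm_sum_le_of_le _ h1
    _ ≤ ∑ i ∈ Finset.range K, D * D * η * (1 / 2) * (1 / 2) ^ i :=
        Finset.sum_le_sum_of_subset_of_nonneg hS fun i _ _ => by positivity
    _ = D * D * η * (1 / 2) * ∑ i ∈ Finset.range K, (1 / 2 : ℝ) ^ i := by
        rw [Finset.mul_sum]
    _ ≤ D * D * η * (1 / 2) * 2 := mul_le_mul_of_nonneg_left (sum_geometric_two_le K) hpos
    _ = D * D * η := by ring

theorem block_estimate {W : Type u} [CStarAlgebra W] {T : W} (hT : star T = T) {v : ℕ → W}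
    (hv : ∀ k, star (v k) = v k) (hv1 : ∀ k, ‖v k‖ ≤ 1) (hvv : ∀ k l, k < l → v k * v l = v k)
    {η : ℝ} (hη : 0 ≤ η) (hvT : ∀ i, ‖v i * T * (1 - v (i + 1))‖ ≤ η / 2 ^ i) {q : ℕ → W}
    (hq0 : q 0 = v 0) (hq : ∀ i, q (i + 1) = v (i + 1) - v i) {r n M : ℕ} {C : ℝ} (hC : 0 ≤ C)
    (w : ℕ → Fin n → Fin M → W) (hwC : ∀ i l j, ‖w i l j‖ ≤ C)
    (hw : ∀ i l j, w i l j ∈ closure (Set.range fun x => q i * x * q i)) {ε : ℝ} (hε : 0 ≤ ε)
    (hwε : ∀ i j j', ‖∑ l, star (w i l j) * (q i * T * q i) * w i l j' -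
      (if j = j' then q i * T * q i else 0)‖ ≤ ε) (K : ℕ) (j j' : Fin M) :
    ‖∑ l, star (∑ i ∈ (Finset.range K).filter (fun i => i % 4 = r), q i * w i l j) * T *
        (∑ i ∈ (Finset.range K).filter (fun i => i % 4 = r), q i * w i l j') -
      (if j = j' then ∑ i ∈ (Finset.range K).filter (fun i => i % 4 = r), q i * T * q i
        else 0)‖ ≤ ε + 16 * n * C * C * η := by
  classical
  set S : Finset ℕ := (Finset.range K).filter (fun i => i % 4 = r) with hSdef
  have hSK : S ⊆ Finset.range K := Finset.filter_subset _ _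
  have hSr : ∀ i ∈ S, i % 4 = r := fun i hi => (Finset.mem_filter.1 hi).2
  have hqs := q_star hv hq0 hq
  -- orthogonality
  have hqq : ∀ i ∈ S, ∀ k ∈ S, i ≠ k → q i * q k = 0 := fun i hi k hk h =>
    q_q hv hvv hq0 hq h (by rw [hSr i hi, hSr k hk])
  have hwq : ∀ i ∈ S, ∀ k ∈ S, i ≠ k → ∀ l m, w i l m * q k = 0 := fun i hi k hk h l m =>
    clo_mul (hqq i hi k hk h) (hw i l m)
  have hqw : ∀ i ∈ S, ∀ k ∈ S, i ≠ k → ∀ l m, q k * w i l m = 0 := fun i hi k hk h l m =>
    mul_clo (hqq k hk i hi (Ne.symm h)) (hw i l m)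
  have hwsq : ∀ i ∈ S, ∀ k ∈ S, i ≠ k → ∀ l m, star (w i l m) * q k = 0 := by
    intro i hi k hk h l m
    have := congrArg star (hqw i hi k hk h l m)
    rwa [star_mul, hqs, star_zero] at this
  have hqws : ∀ i ∈ S, ∀ k ∈ S, i ≠ k → ∀ l m, q k * star (w i l m) = 0 := by
    intro i hi k hk h l m
    have := congrArg star (hwq i hi k hk h l m)
    rwa [star_mul, hqs, star_zero] at this
  have hwws : ∀ i ∈ S, ∀ k ∈ S, i ≠ k → ∀ l m l' m', w i l m * star (w k l' m') = 0 := by
    intro i hi k hk h l m l' m'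
    exact clo_mul (hqws k hk i hi (Ne.symm h) l' m') (hw i l m)
  -- the pieces
  have hpn : ∀ i l m, ‖q i * w i l m‖ ≤ 2 * C := fun i l m =>
    (norm_mul_le _ _).trans (mul_le_mul (q_norm hv1 hq0 hq i) (hwC i l m) (norm_nonneg _)
      (by norm_num))
  have hRn : ∀ (l : Fin n) (m : Fin M) (S' : Finset ℕ), S' ⊆ S →
      ‖∑ i ∈ S', q i * w i l m‖ ≤ 2 * C := by
    intro l m S' hS'
    refine norm_sum_orthU S' _ (by positivity) (fun i _ => hpn i l m) ?_ ?_
    · intro i hi k hk h
      rw [star_mul, hqs]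
      calc star (w i l m) * q i * (q k * w k l m) = star (w i l m) * (q i * q k) * w k l m := by
            simp only [mul_assoc]
        _ = 0 := by rw [hqq i (hS' hi) k (hS' hk) h, mul_zero, zero_mul]
    · intro i hi k hk h
      rw [star_mul, hqs]
      calc q i * w i l m * (star (w k l m) * q k) = q i * (w i l m * star (w k l m)) * q k := by
            simp only [mul_assoc]
        _ = 0 := by rw [hwws i (hS' hi) k (hS' hk) h, mul_zero, zero_mul]
  have hpv : ∀ (l : Fin n) (m : Fin M), ∀ i ∈ S,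
      star (q i * w i l m) * v (i + 1) = star (q i * w i l m) := by
    intro l m i _
    rw [star_mul, hqs, mul_assoc, q_v hvv hq0 hq (Nat.lt_succ_self i)]
  have hRv : ∀ (l : Fin n) (m : Fin M), ∀ i ∈ S,
      v (i + 2) * ∑ i' ∈ S.filter (fun i' => i < i'), q i' * w i' l m = 0 := by
    intro l m i hi
    rw [Finset.mul_sum]
    refine Finset.sum_eq_zero fun i' hi' => ?_
    have h1 := Finset.mem_filter.1 hi'
    have h2 := hSr i hi
    have h3 := hSr i' h1.1
    have h4 : i < i' := h1.2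
    rw [← mul_assoc, v_q hvv hq (by omega), zero_mul]
  -- the halves
  have hup : ∀ (l : Fin n) (m m' : Fin M), ‖∑ i ∈ S, star (q i * w i l m) * T *
      ∑ i' ∈ S.filter (fun i' => i < i'), q i' * w i' l m'‖ ≤ 2 * C * (2 * C) * η := by
    intro l m m'
    exact half_bound hη hvT hSK (fun i => q i * w i l m)
      (fun i => ∑ i' ∈ S.filter (fun i' => i < i'), q i' * w i' l m') (by positivity)
      (fun i _ => hpn i l m) (fun i _ => hRn l m' _ (Finset.filter_subset _ _)) (hpv l m)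
      (hRv l m')
  -- diagonal terms
  set e : ℕ → W := fun i => ∑ l, star (w i l j) * (q i * T * q i) * w i l j' -
    (if j = j' then q i * T * q i else 0) with he
  have heq : ∀ i ∈ S, ∀ k ∈ S, i ≠ k → e i * q k = 0 := by
    intro i hi k hk h
    simp only [he]
    rw [sub_mul, Finset.sum_mul]
    have a1 : ∑ l, star (w i l j) * (q i * T * q i) * w i l j' * q k = 0 :=
      Finset.sum_eq_zero fun l _ => by rw [mul_assoc, hwq i hi k hk h, mul_zero]
    rw [a1]
    split_ifs with hj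
    · rw [mul_assoc, hqq i hi k hk h, mul_zero, sub_zero]
    · rw [zero_mul, sub_zero]
  have hqe : ∀ i ∈ S, ∀ k ∈ S, i ≠ k → q k * e i = 0 := by
    intro i hi k hk h
    simp only [he]
    rw [mul_sub, Finset.mul_sum]
    have a1 : ∑ l, q k * (star (w i l j) * (q i * T * q i) * w i l j') = 0 :=
      Finset.sum_eq_zero fun l _ => by
        rw [← mul_assoc, ← mul_assoc, hqws i hi k hk h, zero_mul, zero_mul]
    rw [a1]
    split_ifs with hj
    · rw [← mul_assoc, ← mul_assoc, hqq k hk i hi (Ne.symm h), zero_mul, zero_mul, sub_zero]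
    · rw [mul_zero, sub_zero]
  have hge : ∀ i ∈ S, ∀ k ∈ S, i ≠ k → ∀ x : W, q k * x = 0 → star (e k) * x = 0 := by
    intro i hi k hk h x hx
    simp only [he]
    rw [star_sub, star_sum, sub_mul, Finset.sum_mul]
    have a1 : ∑ l, star (star (w k l j) * (q k * T * q k) * w k l j') * x = 0 := by
      refine Finset.sum_eq_zero fun l _ => ?_
      have b1 : star (star (w k l j) * (q k * T * q k) * w k l j') * x =
          star (w k l j') * (star (q k * T * q k) * (w k l j * x)) := by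
        simp only [star_mul, star_star, mul_assoc]
      rw [b1, clo_mul hx (hw k l j), mul_zero, mul_zero]
    rw [a1]
    split_ifs with hj
    · rw [star_mul, star_mul, hqs, mul_assoc, mul_assoc, hx, mul_zero, mul_zero, sub_zero]
    · rw [star_zero, zero_mul, sub_zero]
  have hgf : ∀ i ∈ S, ∀ k ∈ S, i ≠ k → ∀ x : W, x * q k = 0 → x * star (e k) = 0 := by
    intro i hi k hk h x hx
    simp only [he]
    rw [star_sub, star_sum, mul_sub, Finset.mul_sum]
    have a1 : ∑ l, x * star (star (w k l j) * (q k * T * q k) * w k l j') = 0 := by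
      refine Finset.sum_eq_zero fun l _ => ?_
      have b0 : q k * star x = 0 := by
        have := congrArg star hx
        rwa [star_mul, hqs, star_zero] at this
      have b2 : x * star (w k l j') = 0 := by
        have := congrArg star (clo_mul b0 (hw k l j'))
        rwa [star_mul, star_star, star_zero] at this
      have b1 : x * star (star (w k l j) * (q k * T * q k) * w k l j') =
          x * star (w k l j') * (star (q k * T * q k) * w k l j) := by
        simp only [star_mul, star_star, mul_assoc]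
      rw [b1, b2, zero_mul]
    rw [a1]
    split_ifs with hj
    · rw [star_mul, star_mul, hqs, ← mul_assoc, ← mul_assoc, hx, zero_mul, zero_mul, sub_zero]
    · rw [star_zero, mul_zero, sub_zero]
  have hdiag : ‖∑ i ∈ S, e i‖ ≤ ε := by
    refine norm_sum_orthU S e hε (fun i _ => hwε i j j') ?_ ?_
    · intro i hi k hk h
      exact hge k hk i hi (Ne.symm h) _ (hqe k hk i hi (Ne.symm h))
    · intro i hi k hk h
      exact hgf i hi k hk h _ (heq i hi k hk h)
  -- the identity
  have hmain : ∑ l, star (∑ i ∈ S, q i * w i l j) * T * (∑ i ∈ S, q i * w i l j') -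
      (if j = j' then ∑ i ∈ S, q i * T * q i else 0) =
      ∑ i ∈ S, e i + ∑ l, ∑ i ∈ S, star (q i * w i l j) * T *
        ∑ i' ∈ S.filter (fun i' => i < i'), q i' * w i' l j' +
      ∑ l, star (∑ i' ∈ S, star (q i' * w i' l j') * T *
        ∑ i ∈ S.filter (fun i => i' < i), q i * w i l j) := by
    have c1 : ∀ l, star (∑ i ∈ S, q i * w i l j) * T * (∑ i ∈ S, q i * w i l j') =
        ∑ i ∈ S, star (q i * w i l j) * T * (q i * w i l j') +
        ∑ i ∈ S, star (q i * w i l j) * T *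
          ∑ i' ∈ S.filter (fun i' => i < i'), q i' * w i' l j' +
        star (∑ i' ∈ S, star (q i' * w i' l j') * T *
          ∑ i ∈ S.filter (fun i => i' < i), q i * w i l j) := by
      intro l
      rw [star_sum, Finset.sum_mul, Finset.sum_mul_sum, sum_split]
      congr 1
      · congr 1
        exact Finset.sum_congr rfl fun i _ => (Finset.mul_sum _ _ _).symm
      · rw [star_sum]
        refine Finset.sum_congr rfl fun i' _ => ?_
        rw [star_mul, star_mul, star_star, hT, star_sum, Finset.sum_mul]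
        exact Finset.sum_congr rfl fun i _ => by rw [mul_assoc]
    have c2 : ∑ i ∈ S, e i = ∑ l, ∑ i ∈ S, star (q i * w i l j) * T * (q i * w i l j') -
        (if j = j' then ∑ i ∈ S, q i * T * q i else 0) := by
      simp only [he]
      rw [Finset.sum_sub_distrib, Finset.sum_comm]
      congr 1
      · refine Finset.sum_congr rfl fun l _ => Finset.sum_congr rfl fun i _ => ?_
        rw [star_mul, hqs]
        simp only [mul_assoc]
      · split_ifs with hj
        · rfl
        · exact Finset.sum_const_zero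
    rw [c2, Finset.sum_congr rfl fun l _ => c1 l, Finset.sum_add_distrib, Finset.sum_add_distrib]
    abel
  rw [hmain]
  have n1 : ‖∑ l : Fin n, ∑ i ∈ S, star (q i * w i l j) * T *
        ∑ i' ∈ S.filter (fun i' => i < i'), q i' * w i' l j'‖ ≤ n * (2 * C * (2 * C) * η) := by
    refine (norm_sum_le _ _).trans ?_
    refine (Finset.sum_le_card_nsmul _ _ _ fun l _ => hup l j j').trans ?_
    rw [Finset.card_univ, Fintype.card_fin, nsmul_eq_mul]
  have n2 : ‖∑ l : Fin n, star (∑ i' ∈ S, star (q i' * w i' l j') * T *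
        ∑ i ∈ S.filter (fun i => i' < i), q i * w i l j)‖ ≤ n * (2 * C * (2 * C) * η) := by
    refine (norm_sum_le _ _).trans ?_
    refine (Finset.sum_le_card_nsmul _ _ _ fun l _ => (norm_star _).le.trans (hup l j' j)).trans ?_
    rw [Finset.card_univ, Fintype.card_fin, nsmul_eq_mul]
  have hnn : (0 : ℝ) ≤ n * C * C * η := by positivity
  calc _ ≤ ε + n * (2 * C * (2 * C) * η) + n * (2 * C * (2 * C) * η) :=
        (norm_add_le _ _).trans (add_le_add ((norm_add_le _ _).trans (add_le_add hdiag n1)) n2)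
    _ ≤ ε + 16 * n * C * C * η := by nlinarith [hnn]

theorem block_estimate2 {W : Type u} [CStarAlgebra W] {T : W} (hT : star T = T) {v : ℕ → W}
    (hv : ∀ k, star (v k) = v k) (hv1 : ∀ k, ‖v k‖ ≤ 1) (hvv : ∀ k l, k < l → v k * v l = v k)
    {η : ℝ} (hη : 0 ≤ η) (hvT : ∀ i, ‖v i * T * (1 - v (i + 1))‖ ≤ η / 2 ^ i) {q : ℕ → W}
    (hq0 : q 0 = v 0) (hq : ∀ i, q (i + 1) = v (i + 1) - v i) (r K : ℕ) :
    ‖(∑ i ∈ (Finset.range K).filter (fun i => i % 4 = r), q i) * T *
        (∑ i ∈ (Finset.range K).filter (fun i => i % 4 = r), q i) -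
      ∑ i ∈ (Finset.range K).filter (fun i => i % 4 = r), q i * T * q i‖ ≤ 16 * η := by
  classical
  set S : Finset ℕ := (Finset.range K).filter (fun i => i % 4 = r) with hSdef
  have hSK : S ⊆ Finset.range K := Finset.filter_subset _ _
  have hSr : ∀ i ∈ S, i % 4 = r := fun i hi => (Finset.mem_filter.1 hi).2
  have hqs := q_star hv hq0 hq
  have hqq : ∀ i ∈ S, ∀ k ∈ S, i ≠ k → q i * q k = 0 := fun i hi k hk h =>
    q_q hv hvv hq0 hq h (by rw [hSr i hi, hSr k hk])
  have hRn : ∀ S' : Finset ℕ, S' ⊆ S → ‖∑ i ∈ S', q i‖ ≤ 2 := by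
    intro S' hS'
    refine norm_sum_orthU S' _ (by norm_num) (fun i _ => q_norm hv1 hq0 hq i) ?_ ?_
    · intro i hi k hk h
      rw [hqs, hqq i (hS' hi) k (hS' hk) h]
    · intro i hi k hk h
      rw [hqs, hqq i (hS' hi) k (hS' hk) h]
  have hup : ‖∑ i ∈ S, star (q i) * T * ∑ i' ∈ S.filter (fun i' => i < i'), q i'‖ ≤
      2 * 2 * η := by
    refine half_bound hη hvT hSK (fun i => q i)
      (fun i => ∑ i' ∈ S.filter (fun i' => i < i'), q i') (by norm_num)
      (fun i _ => q_norm hv1 hq0 hq i) (fun i _ => hRn _ (Finset.filter_subset _ _)) ?_ ?_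
    · intro i _
      rw [hqs, q_v hvv hq0 hq (Nat.lt_succ_self i)]
    · intro i hi
      rw [Finset.mul_sum]
      refine Finset.sum_eq_zero fun i' hi' => ?_
      have h1 := Finset.mem_filter.1 hi'
      have h2 := hSr i hi
      have h3 := hSr i' h1.1
      have h4 : i < i' := h1.2
      exact v_q hvv hq (by omega)
  have hmain : (∑ i ∈ S, q i) * T * (∑ i ∈ S, q i) - ∑ i ∈ S, q i * T * q i =
      ∑ i ∈ S, star (q i) * T * ∑ i' ∈ S.filter (fun i' => i < i'), q i' +
      star (∑ i ∈ S, star (q i) * T * ∑ i' ∈ S.filter (fun i' => i < i'), q i') := by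
    rw [Finset.sum_mul, Finset.sum_mul_sum, sum_split]
    have d1 : ∑ i ∈ S, ∑ i' ∈ S.filter (fun i' => i < i'), q i * T * q i' =
        ∑ i ∈ S, star (q i) * T * ∑ i' ∈ S.filter (fun i' => i < i'), q i' := by
      refine Finset.sum_congr rfl fun i _ => ?_
      rw [hqs, Finset.mul_sum]
    have d2 : ∑ i' ∈ S, ∑ i ∈ S.filter (fun i => i' < i), q i * T * q i' =
        star (∑ i ∈ S, star (q i) * T * ∑ i' ∈ S.filter (fun i' => i < i'), q i') := by
      rw [star_sum]
      refine Finset.sum_congr rfl fun i' _ => ?_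
      rw [star_mul, star_mul, star_star, hT, star_sum, Finset.sum_mul]
      exact Finset.sum_congr rfl fun i _ => by rw [hqs, mul_assoc]
    rw [d1, d2]
    abel
  rw [hmain]
  calc _ ≤ 2 * 2 * η + 2 * 2 * η :=
        (norm_add_le _ _).trans (add_le_add hup ((norm_star _).le.trans hup))
    _ ≤ 16 * η := by linarith

end Vale.Agent.P133.R2.H328
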