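import Vale.Agent.P133.H832.Tame2

/-!
P133 (helper328; the proof by insertion is due to helper496): a unital C*-algebra has two
orthogonal full positive elements as soon as it has one self-adjoint element which is not scalar
modulo any proper closed ideal.
-/

open scoped ComplexOrder

namespace Vale.Agent.P133.R2.H328

open Vale.Agent.P133 Vale.Agent.P133.H832

universe u

section

variable {A : Type u} [CStarAlgebra A] [PartialOrder A] [StarOrderedRing A]

/-- `(h - l)₊` -/
noncomputable def pl (h : A) (l : ℝ) : A := cfc (fun x : ℝ => max (x - l) 0) h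

/-- `(h - l)₋` -/
noncomputable def ml (h : A) (l : ℝ) : A := cfc (fun x : ℝ => max (l - x) 0) h

theorem pl_nonneg (h : A) (l : ℝ) : 0 ≤ pl h l := cfc_nonneg fun _ _ => le_max_right _ _

theorem ml_nonneg (h : A) (l : ℝ) : 0 ≤ ml h l := cfc_nonneg fun _ _ => le_max_right _ _

omit [PartialOrder A] [StarOrderedRing A] in
theorem pl_sub_ml {h : A} (hh : IsSelfAdjoint h) (l : ℝ) :
    pl h l - ml h l = h - algebraMap ℝ A l := by
  rw [pl, ml, ← cfc_sub (fun x : ℝ => max (x - l) 0) (fun x : ℝ => max (l - x) 0) h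
    (by fun_prop) (by fun_prop)]
  have h1 : (fun x : ℝ => max (x - l) 0 - max (l - x) 0) = fun x : ℝ => x - l := by
    funext x
    rcases le_total x l with h2 | h2
    · rw [max_eq_right (by linarith), max_eq_left (by linarith)]; ring
    · rw [max_eq_left (by linarith), max_eq_right (by linarith)]; ring
  rw [h1, cfc_sub (fun x : ℝ => x) (fun _ : ℝ => l) h (by fun_prop) (by fun_prop),
    cfc_id' ℝ h, cfc_const l h]

omit [PartialOrder A] [StarOrderedRing A] in
theorem pl_mul_ml (h : A) (l : ℝ) : pl h l * ml h l = 0 ∧ ml h l * pl h l = 0 := by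
  have h1 : (fun x : ℝ => max (x - l) 0 * max (l - x) 0) = fun _ : ℝ => 0 := by
    funext x
    rcases le_total x l with h2 | h2
    · rw [max_eq_right (by linarith : x - l ≤ 0), zero_mul]
    · rw [max_eq_right (by linarith : l - x ≤ 0), mul_zero]
  have h2 : (fun x : ℝ => max (l - x) 0 * max (x - l) 0) = fun _ : ℝ => 0 := by
    funext x
    rw [mul_comm]
    exact congrFun h1 x
  constructor
  · rw [pl, ml, ← cfc_mul (fun x : ℝ => max (x - l) 0) (fun x : ℝ => max (l - x) 0) h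
      (by fun_prop) (by fun_prop), h1, cfc_const_zero]
  · rw [pl, ml, ← cfc_mul (fun x : ℝ => max (l - x) 0) (fun x : ℝ => max (x - l) 0) h
      (by fun_prop) (by fun_prop), h2, cfc_const_zero]

theorem pl_anti {h : A} {l l' : ℝ} (hl : l ≤ l') : pl h l' ≤ pl h l :=
  cfc_mono (fun x _ => max_le_max (by linarith) le_rfl) (by fun_prop) (by fun_prop)

theorem ml_mono {h : A} {l l' : ℝ} (hl : l ≤ l') : ml h l ≤ ml h l' :=
  cfc_mono (fun x _ => max_le_max (by linarith) le_rfl) (by fun_prop) (by fun_prop)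

theorem mem_of_cube {J : Submodule ℂ A} (hJ : IsClosedIdeal J) {n : A} (hn : 0 ≤ n)
    (h : n * n * n ∈ J) : n ∈ J := by
  have hs : star n = n := (IsSelfAdjoint.of_nonneg hn).star_eq
  refine hJ.of_star_mul_self ?_
  rw [hs]
  refine hJ.of_star_mul_self ?_
  rw [star_mul, hs, ← mul_assoc]
  exact (hJ.2 n _ h).2

theorem cube_nonneg {n : A} (hn : 0 ≤ n) : 0 ≤ n * n * n := by
  have hs : star n = n := (IsSelfAdjoint.of_nonneg hn).star_eq
  have h1 := star_left_conjugate_nonneg hn n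
  rwa [hs] at h1

/-- the negative part of `h - l` is in every closed ideal modulo which `h ≥ l` -/
theorem ml_mem {J : Submodule ℂ A} (hJ : IsClosedIdeal J) {h : A} (hh : IsSelfAdjoint h) {l : ℝ}
    {p : A} (hp : p ∈ J) (hle : -p ≤ h - algebraMap ℝ A l) : ml h l ∈ J := by
  set n : A := ml h l with hn
  have hn0 : 0 ≤ n := ml_nonneg h l
  have hs : star n = n := (IsSelfAdjoint.of_nonneg hn0).star_eq
  refine mem_of_cube hJ hn0 (hJ.of_le (cube_nonneg hn0) ?_ (hJ.2 n _ (hJ.2 n _ hp).1).2)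
  have h1 := star_left_conjugate_nonneg (sub_nonneg.2 hle) n
  rw [hs, ← pl_sub_ml hh l] at h1
  obtain ⟨h2, h3⟩ := pl_mul_ml h l
  have h4 : n * (pl h l - ml h l - -p) * n = n * p * n - n * n * n := by
    rw [← hn, sub_neg_eq_add, mul_add, add_mul, mul_sub, h3, zero_sub, neg_mul]
    abel
  rw [h4] at h1
  exact sub_nonneg.1 h1

/-- the positive part of `h - l` is in every closed ideal modulo which `h ≤ l` -/
theorem pl_mem {J : Submodule ℂ A} (hJ : IsClosedIdeal J) {h : A} (hh : IsSelfAdjoint h) {l : ℝ}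
    {p : A} (hp : p ∈ J) (hle : h - algebraMap ℝ A l ≤ p) : pl h l ∈ J := by
  set n : A := pl h l with hn
  have hn0 : 0 ≤ n := pl_nonneg h l
  have hs : star n = n := (IsSelfAdjoint.of_nonneg hn0).star_eq
  refine mem_of_cube hJ hn0 (hJ.of_le (cube_nonneg hn0) ?_ (hJ.2 n _ (hJ.2 n _ hp).1).2)
  have h1 := star_left_conjugate_nonneg (sub_nonneg.2 hle) n
  rw [hs, ← pl_sub_ml hh l] at h1
  obtain ⟨h2, h3⟩ := pl_mul_ml h l
  have h4 : n * (p - (pl h l - ml h l)) * n = n * p * n - n * n * n := by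
    rw [← hn, mul_sub, sub_mul, mul_sub, sub_mul, mul_assoc n (ml h l) n, hn, h3, mul_zero,
      sub_zero]
  rw [h4] at h1
  exact sub_nonneg.1 h1

omit [PartialOrder A] [StarOrderedRing A] in
theorem one_mem_of_near {J : Submodule ℂ A} (hJ : IsClosedIdeal J) {v : A} (hv : v ∈ J)
    (h : ‖1 - v‖ < 1) : (1 : A) ∈ J := by
  have h1 : IsUnit (1 - (1 - v)) := isUnit_one_sub_of_norm_lt_one h
  rw [sub_sub_cancel] at h1
  obtain ⟨w, hw⟩ := h1
  have h2 : v * (↑w⁻¹ : A) = 1 := by rw [← hw]; exact w.mul_inv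
  rw [← h2]
  exact (hJ.2 _ _ hv).2

/-- the scalar part: if `h` is nonscalar modulo every proper closed ideal, finitely many levels
suffice -/
theorem exists_levels {h : A} (hh : IsSelfAdjoint h)
    (hns : ∀ J : Submodule ℂ A, IsClosedIdeal J → (1 : A) ∉ J →
      ∀ l : ℝ, h - algebraMap ℝ A l ∉ J) :
    ∃ F : Finset ℝ, ∀ J : Submodule ℂ A, IsClosedIdeal J →
      (∀ l ∈ F, pl h l ∈ J ∨ ml h l ∈ J) → (1 : A) ∈ J := by
  classical
  let S : Set A := {x | ∃ (l : ℝ) (r s q : A), x = r * pl h l * s * ml h l * q}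
  let K : Submodule ℂ A := Submodule.span ℂ S
  have hKideal : ∀ a x : A, x ∈ K → a * x ∈ K ∧ x * a ∈ K := by
    intro a x hx
    refine Submodule.span_induction (p := fun x _ => a * x ∈ K ∧ x * a ∈ K) ?_ ?_ ?_ ?_ hx
    · rintro _ ⟨l, r, s, q, rfl⟩
      exact ⟨Submodule.subset_span ⟨l, a * r, s, q, by simp only [mul_assoc]⟩,
        Submodule.subset_span ⟨l, r, s, q * a, by simp only [mul_assoc]⟩⟩
    · rw [mul_zero, zero_mul]; exact ⟨K.zero_mem, K.zero_mem⟩
    · rintro x y _ _ ⟨h1, h2⟩ ⟨h3, h4⟩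
      rw [mul_add, add_mul]
      exact ⟨K.add_mem h1 h3, K.add_mem h2 h4⟩
    · rintro c x _ ⟨h1, h2⟩
      rw [mul_smul_comm, smul_mul_assoc]
      exact ⟨K.smul_mem c h1, K.smul_mem c h2⟩
  have hfin : ∀ x ∈ K, ∃ F : Finset ℝ, ∀ J : Submodule ℂ A, IsClosedIdeal J →
      (∀ l ∈ F, pl h l ∈ J ∨ ml h l ∈ J) → x ∈ J := by
    intro x hx
    refine Submodule.span_induction (p := fun x _ => ∃ F : Finset ℝ, ∀ J : Submodule ℂ A,
      IsClosedIdeal J → (∀ l ∈ F, pl h l ∈ J ∨ ml h l ∈ J) → x ∈ J) ?_ ?_ ?_ ?_ hx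
    · rintro _ ⟨l, r, s, q, rfl⟩
      refine ⟨{l}, fun J hJ hF => ?_⟩
      rcases hF l (Finset.mem_singleton_self l) with h1 | h1
      · have h2 : r * pl h l * s * ml h l * q = r * pl h l * (s * ml h l * q) := by
          simp only [mul_assoc]
        rw [h2]
        exact (hJ.2 _ _ (hJ.2 _ _ h1).1).2
      · have h2 : r * pl h l * s * ml h l * q = (r * pl h l * s) * ml h l * q := by
          simp only [mul_assoc]
        rw [h2]
        exact (hJ.2 _ _ (hJ.2 _ _ h1).1).2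
    · exact ⟨∅, fun J _ _ => J.zero_mem⟩
    · rintro x y _ _ ⟨F, hF⟩ ⟨F', hF'⟩
      exact ⟨F ∪ F', fun J hJ h1 => J.add_mem
        (hF J hJ fun l hl => h1 l (Finset.mem_union_left _ hl))
        (hF' J hJ fun l hl => h1 l (Finset.mem_union_right _ hl))⟩
    · rintro c x _ ⟨F, hF⟩
      exact ⟨F, fun J hJ h1 => J.smul_mem c (hF J hJ h1)⟩
  by_cases h1 : (1 : A) ∈ K.topologicalClosure
  · obtain ⟨v, hv, hd⟩ := Metric.mem_closure_iff.1 h1 1 one_pos
    rw [dist_eq_norm] at hd
    obtain ⟨F, hF⟩ := hfin v hv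
    exact ⟨F, fun J hJ h2 => one_mem_of_near hJ (hF J hJ h2) hd⟩
  · exfalso
    obtain ⟨B, i1, i2, i3, ψ, hψ, hψK, hψ1, hprime⟩ :=
      exists_prime_quotient (isClosedIdeal_closure hKideal) (zero_le_one' A) h1
    let J : Submodule ℂ A := LinearMap.ker (ψ : A →ₗ[ℂ] B)
    have hJm : ∀ x, x ∈ J ↔ ψ x = 0 := fun x => LinearMap.mem_ker
    have hψc : Continuous ψ := map_continuous ψ
    have hJ : IsClosedIdeal J := by
      refine ⟨?_, fun a x hx => ?_⟩
      · have : (J : Set A) = ψ ⁻¹' {0} := by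
          ext x
          exact hJm x
        rw [this]
        exact isClosed_singleton.preimage hψc
      · have hx0 := (hJm x).1 hx
        exact ⟨(hJm _).2 (by rw [map_mul, hx0, mul_zero]),
          (hJm _).2 (by rw [map_mul, hx0, zero_mul])⟩
    have h1J : (1 : A) ∉ J := fun h2 => hψ1 ((hJm 1).1 h2)
    have hone : ∀ l : ℝ, pl h l ∈ J ∨ ml h l ∈ J := by
      intro l
      by_contra hcon
      push Not at hcon
      obtain ⟨w, hw⟩ := hprime (pl h l) (ml h l) (fun h2 => hcon.1 ((hJm _).2 h2))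
        (fun h2 => hcon.2 ((hJm _).2 h2))
      refine hw (hψK _ (Submodule.le_topologicalClosure _ (Submodule.subset_span
        ⟨l, 1, w, 1, by rw [one_mul, mul_one]⟩)))
    have hnot : ∀ l : ℝ, ¬ (pl h l ∈ J ∧ ml h l ∈ J) := by
      rintro l ⟨h2, h3⟩
      have h4 := J.sub_mem h2 h3
      rw [pl_sub_ml hh l] at h4
      exact hns J hJ h1J l h4
    let T : Set ℝ := {l | pl h l ∈ J}
    have : Nontrivial A := ⟨⟨1, 0, fun h2 => h1J (by rw [h2]; exact J.zero_mem)⟩⟩
    have hspec : ∀ x ∈ spectrum ℝ h, |x| ≤ ‖h‖ := fun x hx => by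
      have := spectrum.norm_le_norm_of_mem hx
      rwa [Real.norm_eq_abs] at this
    have hT1 : ‖h‖ ∈ T := by
      have h2 : pl h ‖h‖ = 0 := by
        rw [pl, cfc_congr (g := fun _ : ℝ => 0), cfc_const_zero]
        intro x hx
        exact max_eq_right (by linarith [(abs_le.1 (hspec x hx)).2])
      show pl h ‖h‖ ∈ J
      rw [h2]
      exact J.zero_mem
    have hT2 : ∀ l ∈ T, -‖h‖ ≤ l := by
      intro l hl
      by_contra hcon
      push Not at hcon
      have h2 : ml h l = 0 := by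
        rw [ml, cfc_congr (g := fun _ : ℝ => 0), cfc_const_zero]
        intro x hx
        exact max_eq_right (by linarith [(abs_le.1 (hspec x hx)).1])
      exact hnot l ⟨hl, by rw [h2]; exact J.zero_mem⟩
    have hTb : BddBelow T := ⟨_, hT2⟩
    set l0 : ℝ := sInf T with hl0
    refine hns J hJ h1J l0 (hJ.lim fun ε hε => ?_)
    have hε2 : 0 < ε / 2 := half_pos hε
    have h2 : pl h (l0 + ε / 2) ∈ J := by
      obtain ⟨l, hl, hll⟩ := exists_lt_of_csInf_lt ⟨_, hT1⟩ (lt_add_of_pos_right l0 hε2)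
      exact hJ.of_le (pl_nonneg _ _) (pl_anti hll.le) hl
    have h3 : ml h (l0 - ε / 2) ∈ J := by
      rcases hone (l0 - ε / 2) with h4 | h4
      · have h5 := csInf_le hTb h4
        linarith
      · exact h4
    refine ⟨pl h (l0 + ε / 2) - ml h (l0 - ε / 2), J.sub_mem h2 h3, ?_⟩
    have h4 : pl h (l0 + ε / 2) - ml h (l0 - ε / 2) - (h - algebraMap ℝ A l0) =
        cfc (fun x : ℝ => (max (x - (l0 + ε / 2)) 0 - max (l0 - ε / 2 - x) 0) - (x - l0)) h := by
      rw [cfc_sub (fun x : ℝ => max (x - (l0 + ε / 2)) 0 - max (l0 - ε / 2 - x) 0)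
        (fun x : ℝ => x - l0) h (by fun_prop) (by fun_prop),
        cfc_sub (fun x : ℝ => max (x - (l0 + ε / 2)) 0) (fun x : ℝ => max (l0 - ε / 2 - x) 0) h
        (by fun_prop) (by fun_prop),
        cfc_sub (fun x : ℝ => x) (fun _ : ℝ => l0) h (by fun_prop) (by fun_prop),
        cfc_id' ℝ h, cfc_const l0 h]
      rfl
    rw [h4]
    refine lt_of_le_of_lt (norm_cfc_le hε2.le fun x _ => ?_) (half_lt_self hε)
    rw [Real.norm_eq_abs, abs_le]
    rcases le_total x (l0 + ε / 2) with h5 | h5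
    · rcases le_total x (l0 - ε / 2) with h6 | h6
      · rw [max_eq_right (by linarith), max_eq_left (by linarith)]
        constructor <;> linarith
      · rw [max_eq_right (by linarith), max_eq_right (by linarith)]
        constructor <;> linarith
    · rw [max_eq_left (by linarith), max_eq_right (by linarith)]
      constructor <;> linarith

theorem star_add_le (a b : A) :
    star (a + b) * (a + b) ≤ (2 : ℝ) • (star a * a) + (2 : ℝ) • (star b * b) := by
  rw [← sub_nonneg]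
  have h1 : (2 : ℝ) • (star a * a) + (2 : ℝ) • (star b * b) - star (a + b) * (a + b) =
      star (a - b) * (a - b) := by
    rw [two_smul, two_smul, star_add, star_sub, add_mul, mul_add, mul_add, sub_mul, mul_sub,
      mul_sub]
    abel
  rw [h1]
  exact star_mul_self_nonneg _

/-- separation of two closed ideals with dense sum -/
theorem exists_sep {I I' : Submodule ℂ A} (hI : IsClosedIdeal I) (hI' : IsClosedIdeal I')
    (hd : ∀ J : Submodule ℂ A, IsClosedIdeal J → I ≤ J → I' ≤ J → (1 : A) ∈ J) :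
    ∃ e : A, 0 ≤ e ∧ 0 ≤ 1 - e ∧ e ∈ I ∧ 1 - e ∈ I' := by
  have hJ : IsClosedIdeal (I ⊔ I').topologicalClosure := isClosedIdeal_closure (by
    intro a x hx
    obtain ⟨p, hp, q, hq, rfl⟩ := Submodule.mem_sup.1 hx
    rw [mul_add, add_mul]
    exact ⟨Submodule.add_mem_sup (hI.2 a p hp).1 (hI'.2 a q hq).1,
      Submodule.add_mem_sup (hI.2 a p hp).2 (hI'.2 a q hq).2⟩)
  have h1 := hd _ hJ (le_sup_left.trans (Submodule.le_topologicalClosure _))
    (le_sup_right.trans (Submodule.le_topologicalClosure _))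
  obtain ⟨v, hv, hdv⟩ := Metric.mem_closure_iff.1 h1 (1 / 2) (by norm_num)
  rw [dist_eq_norm] at hdv
  obtain ⟨p, hp, q, hq, rfl⟩ := Submodule.mem_sup.1 hv
  set W : A := star p * p + star q * q with hW
  have hW0 : 0 ≤ W := add_nonneg (star_mul_self_nonneg _) (star_mul_self_nonneg _)
  have hWs : IsSelfAdjoint W := IsSelfAdjoint.of_nonneg hW0
  -- `W ≥ 1 / 8`
  have hW8 : algebraMap ℝ A (1 / 8) ≤ W := by
    have h2 := star_add_le (p + q) (1 - (p + q))
    rw [add_sub_cancel, star_one, one_mul] at h2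
    have h3 := star_add_le p q
    have h4 : star (1 - (p + q)) * (1 - (p + q)) ≤ algebraMap ℝ A (1 / 4) := by
      refine (CStarAlgebra.star_mul_le_algebraMap_norm_sq (a := 1 - (p + q))).trans ?_
      refine algebraMap_mono A ?_
      nlinarith [norm_nonneg (1 - (p + q))]
    have h5 : (2 : ℝ) • (star (p + q) * (p + q)) ≤ (4 : ℝ) • W := by
      have := smul_le_smul_of_nonneg_left h3 (show (0 : ℝ) ≤ 2 by norm_num)
      refine this.trans (le_of_eq ?_)
      rw [← smul_add, smul_smul, ← hW]; norm_num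
    have h6 : (2 : ℝ) • (star (1 - (p + q)) * (1 - (p + q))) ≤ algebraMap ℝ A (1 / 2) := by
      have := smul_le_smul_of_nonneg_left h4 (show (0 : ℝ) ≤ 2 by norm_num)
      refine this.trans (le_of_eq ?_)
      rw [Algebra.algebraMap_eq_smul_one, Algebra.algebraMap_eq_smul_one, smul_smul]; norm_num
    have h7 : (1 : A) ≤ (4 : ℝ) • W + algebraMap ℝ A (1 / 2) := h2.trans (add_le_add h5 h6)
    have h8 : algebraMap ℝ A (1 / 2) ≤ (4 : ℝ) • W := by
      have h9 : (1 : A) - algebraMap ℝ A (1 / 2) = algebraMap ℝ A (1 / 2) := by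
        rw [sub_eq_iff_eq_add, ← map_add]; norm_num
      rw [← h9]
      exact sub_le_iff_le_add.2 h7
    have h9 := smul_le_smul_of_nonneg_left h8 (show (0 : ℝ) ≤ 1 / 4 by norm_num)
    rw [smul_smul, Algebra.algebraMap_eq_smul_one, smul_smul] at h9
    rw [Algebra.algebraMap_eq_smul_one]
    norm_num at h9 ⊢
    exact h9
  have hspec : ∀ x ∈ spectrum ℝ W, 1 / 8 ≤ x :=
    (algebraMap_le_iff_le_spectrum (p := IsSelfAdjoint)).1 hW8
  set g : ℝ → ℝ := fun x => (Real.sqrt (max x (1 / 8)))⁻¹ with hg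
  have hpos : ∀ x : ℝ, 0 < Real.sqrt (max x (1 / 8)) := fun x =>
    Real.sqrt_pos.2 (lt_of_lt_of_le (by norm_num) (le_max_right _ _))
  have hgc : Continuous g := by
    refine Continuous.inv₀ ?_ fun x => (hpos x).ne'
    exact Real.continuous_sqrt.comp (continuous_id.max continuous_const)
  set G : A := cfc g W with hG
  have hGs : star G = G := (cfc_predicate (p := IsSelfAdjoint) g W).star_eq
  have hGWG : G * W * G = 1 := by
    have e1 : G * W * G = cfc (fun x => g x * x * g x) W := by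
      rw [cfc_mul (fun x => g x * x) g W (hgc.mul continuous_id).continuousOn hgc.continuousOn,
        cfc_mul g (fun x : ℝ => x) W hgc.continuousOn (by fun_prop), cfc_id' ℝ W]
    rw [e1, cfc_congr (g := fun _ : ℝ => 1), cfc_const_one ℝ W]
    intro x hx
    have hx8 := hspec x hx
    have h2 : Real.sqrt x ≠ 0 := (Real.sqrt_pos.2 (lt_of_lt_of_le (by norm_num) hx8)).ne'
    simp only [hg, max_eq_left hx8]
    have h3 : Real.sqrt x * Real.sqrt x = x := Real.mul_self_sqrt (by linarith)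
    calc (Real.sqrt x)⁻¹ * x * (Real.sqrt x)⁻¹ =
          (Real.sqrt x)⁻¹ * (Real.sqrt x * Real.sqrt x) * (Real.sqrt x)⁻¹ := by rw [h3]
      _ = 1 := by field_simp
  have hsum : G * (star p * p) * G + G * (star q * q) * G = 1 := by
    rw [← hGWG, hW, mul_add, add_mul]
  have h1e : 1 - G * (star p * p) * G = G * (star q * q) * G := by
    rw [← hsum]; abel
  refine ⟨G * (star p * p) * G, ?_, ?_, ?_, ?_⟩
  · have := star_left_conjugate_nonneg (star_mul_self_nonneg p) G
    rwa [hGs] at this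
  · rw [h1e]
    have := star_left_conjugate_nonneg (star_mul_self_nonneg q) G
    rwa [hGs] at this
  · exact (hI.2 _ _ (hI.2 _ _ (hI.2 _ _ hp).1).1).2
  · rw [h1e]
    exact (hI'.2 _ _ (hI'.2 _ _ (hI'.2 _ _ hq).1).1).2

/-- the insertion theorem -/
theorem insertion {h : A} (hh : IsSelfAdjoint h) {M : ℕ} {l : ℕ → ℝ}
    (hl : ∀ i j, i ≤ j → j ≤ M → l i ≤ l j) {e : ℕ → A}
    (he0 : ∀ i < M, 0 ≤ e i) (he1 : ∀ i < M, 0 ≤ 1 - e i)
    (hep : ∀ i < M, InId (pl h (l (i + 1))) (e i))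
    (hem : ∀ i < M, InId (ml h (l i)) (1 - e i))
    (hF : ∀ J : Submodule ℂ A, IsClosedIdeal J →
      (∀ i ≤ M, pl h (l i) ∈ J ∨ ml h (l i) ∈ J) → (1 : A) ∈ J) :
    ∃ x y : A, 0 ≤ x ∧ 0 ≤ y ∧ x * y = 0 ∧ InId x 1 ∧ InId y 1 := by
  set D : ℕ → ℝ := fun i => l (i + 1) - l i with hD
  have hD0 : ∀ i < M, 0 ≤ D i := fun i hi => sub_nonneg.2 (hl i (i + 1) (Nat.le_succ i) hi)
  set z : A := algebraMap ℝ A (l 0) + ∑ i ∈ Finset.range M, D i • e i with hz
  have hDsum : ∀ k, ∑ i ∈ Finset.range k, D i = l k - l 0 := fun k => Finset.sum_range_sub l k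
  have hsplit : ∀ k ≤ M, z - algebraMap ℝ A (l k) =
      (∑ i ∈ Finset.Ico k M, D i • e i) - ∑ i ∈ Finset.range k, D i • (1 - e i) := by
    intro k hk
    have h1 : algebraMap ℝ A (l k) = algebraMap ℝ A (l 0) + ∑ i ∈ Finset.range k, D i • (1 : A) := by
      rw [← Finset.sum_smul, hDsum, Algebra.algebraMap_eq_smul_one, Algebra.algebraMap_eq_smul_one,
        ← add_smul]
      congr 1
      ring
    have h2 : ∑ i ∈ Finset.range M, D i • e i =
        ∑ i ∈ Finset.range k, D i • e i + ∑ i ∈ Finset.Ico k M, D i • e i :=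
      (Finset.sum_range_add_sum_Ico _ hk).symm
    rw [hz, h1, h2]
    simp only [smul_sub, Finset.sum_sub_distrib]
    abel
  have hzs : IsSelfAdjoint z := by
    refine IsSelfAdjoint.add (IsSelfAdjoint.algebraMap A (by rfl)) ?_
    refine isSelfAdjoint_sum _ fun i hi => ?_
    exact IsSelfAdjoint.smul (.all (D i))
      (IsSelfAdjoint.of_nonneg (he0 i (Finset.mem_range.1 hi)))
  have hhz : IsSelfAdjoint (h - z) := hh.sub hzs
  have hdec : pl (h - z) 0 - ml (h - z) 0 = h - z := by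
    rw [pl_sub_ml hhz 0, map_zero, sub_zero]
  have hsm : ∀ {J : Submodule ℂ A} (r : ℝ) {x : A}, x ∈ J → r • x ∈ J := by
    intro J r x hx
    have := J.smul_mem (r : ℂ) hx
    rwa [Complex.coe_smul] at this
  -- negative part
  have hneg : ∀ J : Submodule ℂ A, IsClosedIdeal J → ml (h - z) 0 ∈ J → (1 : A) ∈ J := by
    intro J hJ hm
    refine hF J hJ fun k hk => Or.inr ?_
    induction k using Nat.strong_induction_on with
    | _ k ih =>
      have hr : ∀ i < k, 1 - e i ∈ J := fun i hi =>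
        hJ.inId (ih i hi (hi.le.trans hk)) (hem i (lt_of_lt_of_le hi hk))
      refine ml_mem hJ hh (p := ml (h - z) 0 + ∑ i ∈ Finset.range k, D i • (1 - e i))
        (J.add_mem hm (J.sum_mem fun i hi => hsm _ (hr i (Finset.mem_range.1 hi)))) ?_
      have h1 : h - algebraMap ℝ A (l k) - -(ml (h - z) 0 +
          ∑ i ∈ Finset.range k, D i • (1 - e i)) =
          pl (h - z) 0 + ∑ i ∈ Finset.Ico k M, D i • e i := by
        have h2 := hsplit k hk
        have h3 : h - algebraMap ℝ A (l k) =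
            (pl (h - z) 0 - ml (h - z) 0) + (z - algebraMap ℝ A (l k)) := by rw [hdec]; abel
        rw [h3, h2]
        abel
      rw [← sub_nonneg, h1]
      refine add_nonneg (pl_nonneg _ _) (Finset.sum_nonneg fun i hi => ?_)
      have hi' := Finset.mem_Ico.1 hi
      exact smul_nonneg (hD0 i hi'.2) (he0 i hi'.2)
  -- positive part
  have hpos : ∀ J : Submodule ℂ A, IsClosedIdeal J → pl (h - z) 0 ∈ J → (1 : A) ∈ J := by
    intro J hJ hm
    have key : ∀ d k, k + d = M → pl h (l k) ∈ J := by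
      intro d
      induction d using Nat.strong_induction_on with
      | _ d ih =>
        intro k hkd
        have hk : k ≤ M := by omega
        have hr : ∀ i, k ≤ i → i < M → e i ∈ J := fun i hi hiM =>
          hJ.inId (ih (M - (i + 1)) (by omega) (i + 1) (by omega)) (hep i hiM)
        refine pl_mem hJ hh (p := pl (h - z) 0 + ∑ i ∈ Finset.Ico k M, D i • e i)
          (J.add_mem hm (J.sum_mem fun i hi => hsm _ (hr i (Finset.mem_Ico.1 hi).1
            (Finset.mem_Ico.1 hi).2))) ?_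
        have h1 : pl (h - z) 0 + ∑ i ∈ Finset.Ico k M, D i • e i -
            (h - algebraMap ℝ A (l k)) =
            ml (h - z) 0 + ∑ i ∈ Finset.range k, D i • (1 - e i) := by
          have h2 := hsplit k hk
          have h3 : h - algebraMap ℝ A (l k) =
              (pl (h - z) 0 - ml (h - z) 0) + (z - algebraMap ℝ A (l k)) := by rw [hdec]; abel
          rw [h3, h2]
          abel
        rw [← sub_nonneg, h1]
        refine add_nonneg (ml_nonneg _ _) (Finset.sum_nonneg fun i hi => ?_)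
        have hi' := Finset.mem_range.1 hi
        exact smul_nonneg (hD0 i (lt_of_lt_of_le hi' hk)) (he1 i (lt_of_lt_of_le hi' hk))
    exact hF J hJ fun k hk => Or.inl (key (M - k) k (by omega))
  refine ⟨pl (h - z) 0, ml (h - z) 0, pl_nonneg _ _, ml_nonneg _ _, (pl_mul_ml _ _).1, ?_, ?_⟩
  · obtain ⟨I, hI, hI'⟩ := isClosedIdeal_inId (pl (h - z) 0)
    exact (hI' _).1 (hpos I hI ((hI' _).2 (InId.refl _)))
  · obtain ⟨I, hI, hI'⟩ := isClosedIdeal_inId (ml (h - z) 0)
    exact (hI' _).1 (hneg I hI ((hI' _).2 (InId.refl _)))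

/-- One nowhere scalar self-adjoint element gives two orthogonal full positive elements. -/
theorem exists_orth_full {h : A} (hh : IsSelfAdjoint h)
    (hns : ∀ J : Submodule ℂ A, IsClosedIdeal J → (1 : A) ∉ J →
      ∀ l : ℝ, h - algebraMap ℝ A l ∉ J) :
    ∃ x y : A, 0 ≤ x ∧ 0 ≤ y ∧ x * y = 0 ∧ InId x 1 ∧ InId y 1 := by
  classical
  obtain ⟨F0, hF0⟩ := exists_levels hh hns
  set F : Finset ℝ := insert 0 F0 with hFdef
  have hF : ∀ J : Submodule ℂ A, IsClosedIdeal J →
      (∀ l ∈ F, pl h l ∈ J ∨ ml h l ∈ J) → (1 : A) ∈ J := fun J hJ h1 =>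
    hF0 J hJ fun l hl => h1 l (Finset.mem_insert_of_mem hl)
  have hcard : 0 < F.card := Finset.card_pos.2 ⟨0, Finset.mem_insert_self _ _⟩
  obtain ⟨M, hM⟩ : ∃ M, F.card = M + 1 := ⟨F.card - 1, by omega⟩
  let E : Fin (M + 1) ↪o ℝ := F.orderEmbOfFin hM
  let l : ℕ → ℝ := fun i => E ⟨min i M, by omega⟩
  have hl : ∀ i j, i ≤ j → j ≤ M → l i ≤ l j := fun i j hij hj =>
    E.monotone (by
      rw [Fin.mk_le_mk]
      omega)
  have hrange : ∀ x ∈ F, ∃ i ≤ M, l i = x := by
    intro x hx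
    have h1 : x ∈ Set.range (F.orderEmbOfFin hM) := by
      rw [Finset.range_orderEmbOfFin]; exact hx
    obtain ⟨i, hi⟩ := h1
    refine ⟨i, by omega, ?_⟩
    rw [← hi]
    show E ⟨min (i : ℕ) M, _⟩ = E i
    congr 1
    exact Fin.ext (by simp only; omega)
  have hF' : ∀ J : Submodule ℂ A, IsClosedIdeal J →
      (∀ i ≤ M, pl h (l i) ∈ J ∨ ml h (l i) ∈ J) → (1 : A) ∈ J := by
    intro J hJ h1
    refine hF J hJ fun x hx => ?_
    obtain ⟨i, hi, rfl⟩ := hrange x hx
    exact h1 i hi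
  have hsep : ∀ i, i < M → ∃ e : A, 0 ≤ e ∧ 0 ≤ 1 - e ∧ InId (pl h (l (i + 1))) e ∧
      InId (ml h (l i)) (1 - e) := by
    intro i hi
    obtain ⟨I, hI, hIm⟩ := isClosedIdeal_inId (pl h (l (i + 1)))
    obtain ⟨I', hI', hIm'⟩ := isClosedIdeal_inId (ml h (l i))
    obtain ⟨e, h1, h2, h3, h4⟩ := exists_sep hI hI' (by
      intro J hJ hIJ hIJ'
      have h5 : pl h (l (i + 1)) ∈ J := hIJ ((hIm _).2 (InId.refl _))
      have h6 : ml h (l i) ∈ J := hIJ' ((hIm' _).2 (InId.refl _))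
      refine hF' J hJ fun k hk => ?_
      rcases Nat.lt_or_ge i k with h7 | h7
      · exact Or.inl (hJ.of_le (pl_nonneg _ _) (pl_anti (hl (i + 1) k h7 hk)) h5)
      · exact Or.inr (hJ.of_le (ml_nonneg _ _) (ml_mono (hl k i h7 hi.le)) h6))
    exact ⟨e, h1, h2, (hIm _).1 h3, (hIm' _).1 h4⟩
  have hsep' : ∀ i, ∃ e : A, i < M → 0 ≤ e ∧ 0 ≤ 1 - e ∧ InId (pl h (l (i + 1))) e ∧
      InId (ml h (l i)) (1 - e) := by
    intro i
    by_cases hi : i < M
    · obtain ⟨e, he⟩ := hsep i hi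
      exact ⟨e, fun _ => he⟩
    · exact ⟨0, fun h1 => absurd h1 hi⟩
  choose e he using hsep'
  exact insertion hh hl (fun i hi => (he i hi).1) (fun i hi => (he i hi).2.1)
    (fun i hi => (he i hi).2.2.1) (fun i hi => (he i hi).2.2.2) hF'

/-- Two orthogonal full positive elements exist if and only if there is a self-adjoint element
which is not scalar modulo any proper closed ideal. -/
theorem orth_full_iff :
    (∃ x y : A, 0 ≤ x ∧ 0 ≤ y ∧ x * y = 0 ∧ InId x 1 ∧ InId y 1) ↔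
      ∃ h : A, IsSelfAdjoint h ∧ ∀ J : Submodule ℂ A, IsClosedIdeal J → (1 : A) ∉ J →
        ∀ l : ℝ, h - algebraMap ℝ A l ∉ J := by
  refine ⟨?_, fun ⟨h, hh, hns⟩ => exists_orth_full hh hns⟩
  rintro ⟨x, y, hx, hy, hxy, hx1, hy1⟩
  refine ⟨x, IsSelfAdjoint.of_nonneg hx, fun J hJ h1 l hl => h1 ?_⟩
  -- `(x - l) y = - l y`
  have h2 : (x - algebraMap ℝ A l) * y ∈ J := (hJ.2 y _ hl).2
  rw [sub_mul, hxy, zero_sub, Algebra.algebraMap_eq_smul_one, smul_mul_assoc, one_mul] at h2
  by_cases hl0 : l = 0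
  · rw [hl0, map_zero, sub_zero] at hl
    exact hJ.inId hl hx1
  · have h3 : y ∈ J := by
      have h4 := J.smul_mem (((-l)⁻¹ : ℝ) : ℂ) h2
      rw [Complex.coe_smul, ← neg_smul, smul_smul, inv_mul_cancel₀ (neg_ne_zero.2 hl0),
        one_smul] at h4
      exact h4
    exact hJ.inId h3 hy1

end

end Vale.Agent.P133.R2.H328
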