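import Vale.Agent.P133.R2.H28.Sums

/-!
P133 (helper328): soft elements of weakly purely infinite C*-algebras are properly infinite.
-/

open scoped ComplexOrder

namespace Vale.Agent.P133.R2.H328

open Vale.Agent.P133 Vale.Agent.P133.Statement Vale.Agent.P133.H832 Vale.Agent.P133F
  Vale.Agent.P133.H681 Vale.Agent.P133.R2.H28

universe u

/-- the tent function, positive exactly on `(s, t)` -/
def tent (s t : ℝ) : ℝ → ℝ := fun x => max 0 (min (x - s) (t - x))

theorem tent_cont (s t : ℝ) : Continuous (tent s t) := by unfold tent; fun_prop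

theorem tent_zero {s t : ℝ} (hs : 0 ≤ s) : tent s t 0 = 0 := by
  unfold tent
  exact max_eq_left ((min_le_left _ _).trans (by linarith))

theorem tent_nonneg (s t x : ℝ) : 0 ≤ tent s t x := le_max_left _ _

theorem tent_out {s t x : ℝ} (h : x ≤ s ∨ t ≤ x) : tent s t x = 0 := by
  unfold tent
  rcases h with h | h
  · exact max_eq_left ((min_le_left _ _).trans (by linarith))
  · exact max_eq_left ((min_le_right _ _).trans (by linarith))

theorem tent_close {s t x : ℝ} (hs : 0 ≤ s) : |tent s t x - tent 0 t x| ≤ s := by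
  unfold tent
  have h1 : |max 0 (min (x - s) (t - x)) - max 0 (min (x - 0) (t - x))| ≤
      |min (x - s) (t - x) - min (x - 0) (t - x)| := by
    have := abs_max_sub_max_le_max (0 : ℝ) (min (x - s) (t - x)) 0 (min (x - 0) (t - x))
    simpa using this
  have h2 := abs_min_sub_min_le_max (x - s) (t - x) (x - 0) (t - x)
  have h3 : max |x - s - (x - 0)| |t - x - (t - x)| ≤ s := by
    refine max_le ?_ ?_
    · have : x - s - (x - 0) = -s := by ring
      rw [this, abs_neg, abs_of_nonneg hs]
    · simpa using hs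
  exact h1.trans (h2.trans h3)

/-- the tent is bounded below where a function supported in `(0, t)` is not small -/
theorem exists_lower {g : ℝ → ℝ} (hg : Continuous g) {t : ℝ}
    (hg0 : ∀ s, s ∉ Set.Ioo 0 t → g s = 0) {ε : ℝ} (hε : 0 < ε) :
    ∃ c : ℝ, 0 < c ∧ ∀ x, ε ≤ |g x| → c ≤ tent 0 t x := by
  have hK : IsCompact (Set.Icc (0 : ℝ) t ∩ {x | ε ≤ |g x|}) :=
    isCompact_Icc.inter_right (isClosed_le continuous_const hg.abs)
  have hmem : ∀ x, ε ≤ |g x| → x ∈ Set.Ioo 0 t := by
    intro x hx
    by_contra h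
    rw [hg0 x h, abs_zero] at hx
    linarith
  rcases (Set.Icc (0 : ℝ) t ∩ {x | ε ≤ |g x|}).eq_empty_or_nonempty with h | h
  · refine ⟨1, one_pos, fun x hx => ?_⟩
    have h1 : x ∈ Set.Icc (0 : ℝ) t ∩ {x | ε ≤ |g x|} := ⟨Set.Ioo_subset_Icc_self (hmem x hx), hx⟩
    rw [h] at h1
    exact absurd h1 (Set.notMem_empty x)
  · obtain ⟨x0, hx0, hmin⟩ := hK.exists_isMinOn h (tent_cont 0 t).continuousOn
    have h2 := hmem x0 hx0.2
    refine ⟨tent 0 t x0, ?_, fun x hx => hmin ⟨Set.Ioo_subset_Icc_self (hmem x hx), hx⟩⟩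
    unfold tent
    exact lt_max_of_lt_right (lt_min (by linarith [h2.1]) (by linarith [h2.2]))

section

variable {A : Type u} [NonUnitalCStarAlgebra A] [PartialOrder A] [StarOrderedRing A]

omit [PartialOrder A] [StarOrderedRing A] in
theorem norm_spec_le {a : A} (ha : IsSelfAdjoint a) {x : ℝ} (hx0 : 0 ≤ x)
    (hx : x ∈ quasispectrum ℝ a) : x ≤ ‖a‖ := by
  have h := norm_apply_le_norm_cfcₙ (fun x : ℝ => x) a hx
  rw [cfcₙ_id' ℝ a, Real.norm_of_nonneg hx0] at h
  exact h

/-- the element `tent s t (a)` -/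
noncomputable def tn (a : A) (s t : ℝ) : A := cfcₙ (tent s t) a

theorem tn_nonneg (a : A) (s t : ℝ) : 0 ≤ tn a s t := cfcₙ_nonneg fun x _ => tent_nonneg s t x

omit [PartialOrder A] [StarOrderedRing A] in
theorem tn_close (a : A) {s t : ℝ} (hs : 0 ≤ s) : ‖tn a s t - tn a 0 t‖ ≤ s := by
  have h1 : tn a s t - tn a 0 t = cfcₙ (fun x => tent s t x - tent 0 t x) a := by
    rw [cfcₙ_sub (tent s t) (tent 0 t) a (tent_cont s t).continuousOn (tent_zero hs)
      (tent_cont 0 t).continuousOn (tent_zero le_rfl)]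
    rfl
  rw [h1]
  refine norm_cfcₙ_le fun x _ => ?_
  rw [Real.norm_eq_abs]
  exact tent_close hs

omit [PartialOrder A] [StarOrderedRing A] in
theorem tn_orth (a : A) {s t s' t' : ℝ} (hs : 0 ≤ s) (hs' : 0 ≤ s') (h : t' ≤ s) :
    tn a s t * tn a s' t' = 0 ∧ tn a s' t' * tn a s t = 0 := by
  have h1 : ∀ x, tent s t x * tent s' t' x = 0 := by
    intro x
    rcases le_total x s with hx | hx
    · rw [tent_out (Or.inl hx), zero_mul]
    · rw [tent_out (s := s') (t := t') (Or.inr (h.trans hx)), mul_zero]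
  have e1 : tn a s t * tn a s' t' = cfcₙ (fun x => tent s t x * tent s' t' x) a := by
    rw [cfcₙ_mul (tent s t) (tent s' t') a (tent_cont s t).continuousOn (tent_zero hs)
      (tent_cont s' t').continuousOn (tent_zero hs')]
    rfl
  have e2 : tn a s' t' * tn a s t = cfcₙ (fun x => tent s' t' x * tent s t x) a := by
    rw [cfcₙ_mul (tent s' t') (tent s t) a (tent_cont s' t').continuousOn (tent_zero hs')
      (tent_cont s t).continuousOn (tent_zero hs)]
    rfl
  have h2 : (fun x => tent s t x * tent s' t' x) = fun _ => (0 : ℝ) := funext h1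
  have h3 : (fun x => tent s' t' x * tent s t x) = fun _ => (0 : ℝ) :=
    funext fun x => by rw [mul_comm]; exact h1 x
  rw [e1, e2, h2, h3]
  exact ⟨cfcₙ_const_zero ℝ a, cfcₙ_const_zero ℝ a⟩

/-- `tn a s t` is in the hereditary subalgebra of `a` -/
theorem tn_mem {a : A} (ha : 0 ≤ a) {s t : ℝ} (hs : 0 ≤ s) :
    tn a s t ∈ closure (Set.range fun w => a * w * a) := by
  have hsa : IsSelfAdjoint a := IsSelfAdjoint.of_nonneg ha
  rw [Metric.mem_closure_iff]
  intro ε hε
  -- cut near zero
  set η : ℝ := ε / 2 with hη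
  have hη0 : 0 < η := half_pos hε
  set f : ℝ → ℝ := fun x => max (tent s t x - η) 0 / (max x η) ^ 2 with hf
  have hpos : ∀ x : ℝ, 0 < (max x η) ^ 2 := fun x => by
    have : η ≤ max x η := le_max_right _ _
    positivity
  have hfc : Continuous f := by
    refine Continuous.div ?_ (by fun_prop) fun x => (hpos x).ne'
    exact ((tent_cont s t).sub continuous_const).max continuous_const
  have hf0 : f 0 = 0 := by
    simp only [hf, tent_zero hs, zero_sub]
    rw [max_eq_right (by linarith), zero_div]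
  refine ⟨a * cfcₙ f a * a, ⟨_, rfl⟩, ?_⟩
  have h1 : a * cfcₙ f a * a = cfcₙ (fun x => x * f x * x) a := by
    have hc1 : Continuous fun x : ℝ => x * f x := continuous_id.mul hfc
    rw [cfcₙ_mul (fun x => x * f x) (fun x : ℝ => x) a hc1.continuousOn (by simp)
      (by fun_prop) rfl, cfcₙ_mul (fun x : ℝ => x) f a (by fun_prop) rfl hfc.continuousOn hf0,
      cfcₙ_id' ℝ a]
  have hc2 : Continuous fun x : ℝ => x * f x * x := (continuous_id.mul hfc).mul continuous_id
  have h2 : tn a s t - a * cfcₙ f a * a = cfcₙ (fun x => tent s t x - x * f x * x) a := by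
    rw [h1, cfcₙ_sub (tent s t) (fun x => x * f x * x) a (tent_cont s t).continuousOn
      (tent_zero hs) hc2.continuousOn (by simp)]
    rfl
  rw [dist_eq_norm, h2]
  refine lt_of_le_of_lt (norm_cfcₙ_le (c := η) fun x hx => ?_) (by rw [hη]; linarith)
  have hx0 : 0 ≤ x := quasispectrum_nonneg_of_nonneg a ha x hx
  have ht0 := tent_nonneg s t x
  have htx : tent s t x ≤ x := by
    unfold tent
    exact max_le hx0 ((min_le_left _ _).trans (by linarith))
  rcases le_total x η with h | h
  · have h3 : f x = 0 := by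
      simp only [hf]
      rw [max_eq_right (by linarith), zero_div]
    rw [h3, mul_zero, zero_mul, sub_zero, Real.norm_of_nonneg ht0]
    exact htx.trans h
  · have hxp : x ≠ 0 := by
      have : 0 < x := lt_of_lt_of_le hη0 h
      exact this.ne'
    have h3 : x * f x * x = max (tent s t x - η) 0 := by
      simp only [hf, max_eq_left h]; field_simp
    rw [h3, Real.norm_eq_abs, abs_le]
    rcases le_total (tent s t x) η with h4 | h4
    · rw [max_eq_right (by linarith)]; constructor <;> linarith
    · rw [max_eq_left (by linarith)]; constructor <;> linarith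

/-- the window below `t` -/
theorem exists_window {a : A} (ha : 0 ≤ a) {t : ℝ} (ht : 0 < t) (h : InId (tn a 0 t) a) {δ : ℝ}
    (hδ : 0 < δ) : ∃ s : ℝ, 0 < s ∧ s < t ∧ InId (tn a s t) (H28.cut a δ) := by
  obtain ⟨m, r, q, hrq⟩ := h (δ / 2) (half_pos hδ)
  set C : ℝ := ∑ k, ‖r k‖ * ‖q k‖ with hC
  have hC0 : 0 ≤ C := Finset.sum_nonneg fun k _ => by positivity
  set s : ℝ := min (t / 2) (δ / (2 * (C + 1))) with hs
  have hs0 : 0 < s := by rw [hs]; positivity
  have hst : s < t := lt_of_le_of_lt (min_le_left _ _) (by linarith)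
  refine ⟨s, hs0, hst, ?_⟩
  obtain ⟨I, hI, hI'⟩ := isClosedIdeal_inId (tn a s t)
  have h1 : ∑ k, r k * tn a s t * q k ∈ I :=
    I.sum_mem fun k _ => (hI' _).2 (InId.term _ _ _)
  have h2 : ‖∑ k, r k * tn a s t * q k - ∑ k, r k * tn a 0 t * q k‖ ≤ C * s := by
    rw [← Finset.sum_sub_distrib, hC, Finset.sum_mul]
    refine norm_sum_le_of_le _ fun k _ => ?_
    have e1 : r k * tn a s t * q k - r k * tn a 0 t * q k = r k * (tn a s t - tn a 0 t) * q k := by
      rw [mul_sub, sub_mul]
    rw [e1]
    calc _ ≤ ‖r k‖ * ‖tn a s t - tn a 0 t‖ * ‖q k‖ :=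
          (norm_mul_le _ _).trans (by gcongr; exact norm_mul_le _ _)
      _ ≤ ‖r k‖ * s * ‖q k‖ := by gcongr; exact tn_close a hs0.le
      _ = _ := by ring
  have h3 : C * s < δ / 2 := by
    have h4 : s ≤ δ / (2 * (C + 1)) := min_le_right _ _
    calc C * s ≤ C * (δ / (2 * (C + 1))) := by gcongr
      _ < δ / 2 := by
        rw [mul_div_assoc', div_lt_div_iff₀ (by positivity) (by norm_num)]
        nlinarith
  have h4 : ‖a - ∑ k, r k * tn a s t * q k‖ < δ := by
    have e2 : a - ∑ k, r k * tn a s t * q k =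
        -(∑ k, r k * tn a 0 t * q k - a) -
          (∑ k, r k * tn a s t * q k - ∑ k, r k * tn a 0 t * q k) := by abel
    rw [e2]
    refine (norm_sub_le _ _).trans_lt ?_
    rw [norm_neg]
    linarith
  exact (hI' _).1 (hI.cut_mem ha h1 h4)

/-- a soft element: for every `t > 0`, `a` is in the closed ideal generated by `tent 0 t (a)` -/
theorem infB_soft {n : ℕ} (hA : WPI A n) {a : A} (ha : 0 ≤ a)
    (hs : ∀ t : ℝ, 0 < t → InId (tn a 0 t) a) : InfB a a := by
  refine infB_lim ha fun η hη => ?_
  have hη2 : 0 < η / 2 := half_pos hη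
  have hw : ∀ t : {t : ℝ // 0 < t}, ∃ s : {t : ℝ // 0 < t}, s.1 < t.1 ∧
      InId (tn a s.1 t.1) (H28.cut a (η / 2)) := by
    intro t
    obtain ⟨s, h1, h2, h3⟩ := exists_window ha t.2 (hs t.1 t.2) hη2
    exact ⟨⟨s, h1⟩, h2, h3⟩
  choose σ hσ1 hσ2 using hw
  let T : ℕ → {t : ℝ // 0 < t} := fun k => Nat.rec ⟨1, one_pos⟩ (fun _ t => σ t) k
  have hT : ∀ k, T (k + 1) = σ (T k) := fun k => rfl
  have hanti : ∀ i j, i ≤ j → (T j).1 ≤ (T i).1 := by
    intro i j hij
    induction hij with
    | refl => exact le_rfl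
    | step _ ih => exact (hσ1 _).le.trans ih
  let x : Fin (numS n) → A := fun i => tn a (T (i + 1)).1 (T i).1
  have hx : ∀ i, 0 ≤ x i := fun i => tn_nonneg _ _ _
  have ho : ∀ i j, i ≠ j → x i * x j = 0 := by
    intro i j hij
    rcases lt_or_gt_of_ne hij with h | h
    · have h1 : (T j).1 ≤ (T (i + 1)).1 := hanti _ _ (by exact_mod_cast h)
      exact (tn_orth a (T (i + 1)).2.le (T (j + 1)).2.le h1).1
    · have h1 : (T i).1 ≤ (T (j + 1)).1 := hanti _ _ (by exact_mod_cast h)
      exact (tn_orth a (T (j + 1)).2.le (T (i + 1)).2.le h1).2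
  refine ⟨H28.cut a (η / 2), ?_, (H28.norm_cut_sub_le ha hη2).trans_lt (by linarith)⟩
  refine infB_mono (Finset.sum_nonneg fun i _ => hx i) ha ?_
    (infB_sum hA le_rfl hx ho (H28.cut_nonneg _ _) fun i => hσ2 (T i))
  exact RI.sum _ fun i _ => Her.mem_RI (tn_mem ha (T (i + 1)).2.le)

/-- Soft elements of weakly purely infinite C*-algebras are properly infinite. -/
theorem soft (hA : WeaklyPurelyInfinite A) {a : A} (ha : 0 ≤ a)
    (hs : ∀ t : ℝ, 0 < t → ∀ J : Submodule ℂ A, IsClosedIdeal J →
      (∀ g : ℝ → ℝ, Continuous g → (∀ s, s ∉ Set.Ioo 0 t → g s = 0) → cfcₙ g a ∈ J) → a ∈ J) :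
    AllBelow a a := by
  obtain ⟨n, hn⟩ := wpi_elementwise hA
  refine allBelow_of_infB (infB_soft hn ha fun t ht => ?_)
  obtain ⟨I, hI, hI'⟩ := isClosedIdeal_inId (tn a 0 t)
  refine (hI' _).1 (hs t ht I hI fun g hg hg0 => ?_)
  -- `g (a)` is a limit of multiples of `tent 0 t (a)`
  have hg00 : g 0 = 0 := hg0 0 (fun h => lt_irrefl _ h.1)
  refine hI.lim fun ε hε => ?_
  obtain ⟨c, hc, hct⟩ := exists_lower hg hg0 (half_pos hε)
  set gε : ℝ → ℝ := fun x => max (g x - ε / 2) 0 + min (g x + ε / 2) 0 with hgε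
  have hgεc : Continuous gε :=
    ((hg.sub continuous_const).max continuous_const).add
      ((hg.add continuous_const).min continuous_const)
  have hgε0 : ∀ x, |g x| < ε / 2 → gε x = 0 := by
    intro x hx
    obtain ⟨h1, h2⟩ := abs_lt.1 hx
    simp only [hgε]
    rw [max_eq_right (by linarith), min_eq_right (by linarith), add_zero]
  have hgε00 : gε 0 = 0 := hgε0 0 (by rw [hg00, abs_zero]; exact half_pos hε)
  have hm : ∀ x, max (tent 0 t x) c ≠ 0 := fun x =>
    (lt_of_lt_of_le hc (le_max_right _ _)).ne'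
  set w : ℝ → ℝ := fun x => gε x / max (tent 0 t x) c with hw
  have hwc : Continuous w :=
    hgεc.div ((tent_cont 0 t).max continuous_const) hm
  have hw0 : w 0 = 0 := by simp only [hw, hgε00, zero_div]
  have hprod : (fun x => tent 0 t x * w x) = gε := by
    funext x
    rcases lt_or_ge |g x| (ε / 2) with h | h
    · simp only [hw, hgε0 x h, zero_div, mul_zero]
    · have h1 := hct x h
      have h2 : tent 0 t x ≠ 0 := (lt_of_lt_of_le hc h1).ne'
      simp only [hw, max_eq_left h1]
      field_simp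
  refine ⟨cfcₙ gε a, ?_, ?_⟩
  · rw [← hprod, cfcₙ_mul (tent 0 t) w a (tent_cont 0 t).continuousOn (tent_zero le_rfl)
      hwc.continuousOn hw0]
    exact (hI.2 _ _ ((hI' _).2 (InId.refl (tn a 0 t)))).2
  · have h1 : cfcₙ gε a - cfcₙ g a = cfcₙ (fun x => gε x - g x) a := by
      rw [cfcₙ_sub gε g a hgεc.continuousOn hgε00 hg.continuousOn hg00]
    rw [h1]
    refine lt_of_le_of_lt (norm_cfcₙ_le (c := ε / 2) fun x _ => ?_) (half_lt_self hε)
    rw [Real.norm_eq_abs, abs_le]
    simp only [hgε]
    rcases le_total (g x) (ε / 2) with h2 | h2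
    · rcases le_total (g x) (-(ε / 2)) with h3 | h3
      · rw [max_eq_right (by linarith), min_eq_left (by linarith)]
        constructor <;> linarith
      · rw [max_eq_right (by linarith), min_eq_right (by linarith)]
        constructor <;> linarith
    · rw [max_eq_left (by linarith), min_eq_right (by linarith)]
      constructor <;> linarith

/-- If no quotient of the weakly purely infinite C*-algebra `A` contains a nonzero projection,
then `A` is purely infinite. -/
theorem pi_of_no_proj (hA : WeaklyPurelyInfinite A)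
    (hp : ∀ J : Submodule ℂ A, IsClosedIdeal J → ∀ e : A, 0 ≤ e → e * e - e ∈ J → e ∈ J) :
    PurelyInfinite A := by
  obtain ⟨n, hn⟩ := wpi_elementwise hA
  refine pi_of_eltPI fun a a0 ε hε => ?_
  have hI : InfB a a := by
    refine infB_soft hn a0 fun t ht => ?_
    obtain ⟨I, hI, hI'⟩ := isClosedIdeal_inId (tn a 0 t)
    rw [← hI']
    set f : ℝ → ℝ := fun x => min 1 (max x 0 / t) with hf
    have hfc : Continuous f := by
      have : Continuous fun x : ℝ => max x 0 / t := (continuous_id.max continuous_const).div_const t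
      exact continuous_const.min this
    have hf0 : f 0 = 0 := by
      simp only [hf, max_self, zero_div]
      exact min_eq_right zero_le_one
    have hfn : ∀ x, 0 ≤ f x := fun x => le_min zero_le_one (by positivity)
    set e : A := cfcₙ f a with he
    have he0 : 0 ≤ e := cfcₙ_nonneg fun x _ => hfn x
    have h1 : e - e * e = cfcₙ (fun x => f x - f x * f x) a := by
      rw [cfcₙ_sub f (fun x => f x * f x) a hfc.continuousOn hf0 (hfc.mul hfc).continuousOn
        (by simp [hf0]), cfcₙ_mul f f a hfc.continuousOn hf0 hfc.continuousOn hf0]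
    have hqs : ∀ x ∈ quasispectrum ℝ a, 0 ≤ x := quasispectrum_nonneg_of_nonneg a a0
    have h2 : e - e * e ∈ I := by
      have h3 : tn a 0 t ∈ I := (hI' _).2 (InId.refl _)
      have h4 : (t⁻¹ : ℝ) • tn a 0 t ∈ I := by
        have := I.smul_mem ((t⁻¹ : ℝ) : ℂ) h3
        rwa [Complex.coe_smul] at this
      refine hI.of_le ?_ ?_ h4
      · rw [h1]
        refine cfcₙ_nonneg fun x _ => ?_
        have := hfn x
        have : f x ≤ 1 := min_le_left _ _
        nlinarith
      · rw [h1, tn, ← cfcₙ_smul t⁻¹ (tent 0 t) a (tent_cont 0 t).continuousOn (tent_zero le_rfl)]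
        refine cfcₙ_mono (fun x hx => ?_) (hfc.sub (hfc.mul hfc)).continuousOn
          ((tent_cont 0 t).const_smul t⁻¹).continuousOn (by simp [hf0])
          (by simp [tent_zero le_rfl])
        have hx0 := hqs x hx
        simp only [smul_eq_mul]
        rcases le_total t x with h | h
        · have h5 : f x = 1 := by
            simp only [hf, max_eq_left hx0]
            exact min_eq_left ((one_le_div ht).2 h)
          rw [h5, tent_out (Or.inr h)]
          norm_num
        · have h5 : f x = x / t := by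
            simp only [hf, max_eq_left hx0]
            exact min_eq_right ((div_le_one ht).2 h)
          have h6 : min (x - 0) (t - x) ≤ tent 0 t x := le_max_right _ _
          have h7 : x / t - x / t * (x / t) ≤ t⁻¹ * min (x - 0) (t - x) := by
            have h8 : x / t ≤ 1 := (div_le_one ht).2 h
            have h9 : 0 ≤ x / t := div_nonneg hx0 ht.le
            rcases min_choice (x - 0) (t - x) with h10 | h10
            · rw [h10]
              have : t⁻¹ * (x - 0) = x / t := by ring
              rw [this]; nlinarith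
            · rw [h10]
              have : t⁻¹ * (t - x) = 1 - x / t := by field_simp
              rw [this]; nlinarith
          rw [h5]
          exact h7.trans (by gcongr)
    have h3 : e ∈ I := hp I hI e he0 (by
      have : e * e - e = -(e - e * e) := by abel
      rw [this]; exact I.neg_mem h2)
    -- `a ≤ C e`
    have h4 : ((max ‖a‖ t : ℝ)) • e ∈ I := by
      have := I.smul_mem ((max ‖a‖ t : ℝ) : ℂ) h3
      rwa [Complex.coe_smul] at this
    refine hI.of_le a0 ?_ h4
    have h5 : a = cfcₙ (fun x : ℝ => x) a := (cfcₙ_id' ℝ a).symm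
    conv_lhs => rw [h5]
    rw [he, ← cfcₙ_smul (max ‖a‖ t) f a hfc.continuousOn hf0]
    refine cfcₙ_mono (fun x hx => ?_) (by fun_prop) (hfc.const_smul (max ‖a‖ t)).continuousOn rfl
      (by simp [hf0])
    have hx0 := hqs x hx
    have hxn : x ≤ ‖a‖ := by
      have hsa : IsSelfAdjoint a := IsSelfAdjoint.of_nonneg a0
      exact norm_spec_le hsa hx0 hx
    simp only [smul_eq_mul]
    rcases le_total t x with h | h
    · have h5 : f x = 1 := by
        simp only [hf, max_eq_left hx0]
        exact min_eq_left ((one_le_div ht).2 h)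
      rw [h5, mul_one]
      exact hxn.trans (le_max_left _ _)
    · have h5 : f x = x / t := by
        simp only [hf, max_eq_left hx0]
        exact min_eq_right ((div_le_one ht).2 h)
      rw [h5]
      calc x = t * (x / t) := by field_simp
        _ ≤ _ := by gcongr; exact le_max_right _ _
  obtain ⟨r, hr⟩ := hI.2 2 ε hε
  refine ⟨r 0, r 1, ?_, ?_, ?_⟩
  · simpa using hr 0 0
  · simpa using hr 1 1
  · simpa using hr 0 1

end

end Vale.Agent.P133.R2.H328
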